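import Mathlib

/-!
# A finite CW structure from a family of continuous characteristic maps
-/

set_option autoImplicit false

namespace Crest.Agent.R177.CWQuotAux

open Metric Set

/-- A continuous map from the closed ball to a Hausdorff space, injective on the open ball and
separating the open ball from the sphere, has a continuous inverse on the image of the open ball. -/
theorem continuousOn_inv {X : Type} [TopologicalSpace X] [T2Space X] {n : ℕ}
    (Φ : (Fin n → ℝ) → X) (hc : Continuous Φ) (hi : InjOn Φ (ball 0 1))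
    (hd : ∀ x ∈ ball (0 : Fin n → ℝ) 1, ∀ y ∈ sphere (0 : Fin n → ℝ) 1, Φ x ≠ Φ y) :
    ContinuousOn (hi.toPartialEquiv Φ (ball 0 1)).symm (hi.toPartialEquiv Φ (ball 0 1)).target := by
  set e := hi.toPartialEquiv Φ (ball 0 1) with he
  have hs : e.source = ball 0 1 := rfl
  have ht : e.target = Φ '' ball 0 1 := rfl
  have hf : ∀ x, e x = Φ x := fun _ => rfl
  rw [continuousOn_iff_isClosed]
  intro t htc
  refine ⟨Φ '' (t ∩ closedBall 0 1), ?_, ?_⟩
  · exact (((isCompact_closedBall (0 : Fin n → ℝ) 1).inter_left htc).image hc).isClosed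
  · ext z
    simp only [mem_inter_iff, mem_preimage]
    constructor
    · rintro ⟨h1, h2⟩
      refine ⟨⟨e.symm z, ⟨h1, ?_⟩, ?_⟩, h2⟩
      · exact ball_subset_closedBall (hs ▸ e.map_target h2)
      · rw [← hf]; exact e.right_inv h2
    · rintro ⟨⟨x, ⟨hx1, hx2⟩, rfl⟩, h2⟩
      refine ⟨?_, h2⟩
      have hxb : x ∈ ball (0 : Fin n → ℝ) 1 := by
        by_contra hxb
        have hxs : x ∈ sphere (0 : Fin n → ℝ) 1 := by
          rw [mem_sphere]
          rw [mem_closedBall] at hx2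
          rw [mem_ball, not_lt] at hxb
          exact le_antisymm hx2 hxb
        rw [ht] at h2
        obtain ⟨y, hy, hyx⟩ := h2
        exact hd y hy x hxs hyx
      have : e.symm (Φ x) = x := by
        rw [← hf]; exact e.left_inv (hs ▸ hxb)
      rw [this]; exact hx1

/-- finite CW structure from characteristic maps -/
theorem exists_cw {X : Type} [TopologicalSpace X] [T2Space X] (cell : ℕ → Type) (d : ℕ)
    (Φ : ∀ n, cell n → (Fin n → ℝ) → X)
    (hemp : ∀ n, d < n → IsEmpty (cell n)) (hfin : ∀ n, Finite (cell n))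
    (hc : ∀ n i, Continuous (Φ n i))
    (hi : ∀ n i, InjOn (Φ n i) (ball 0 1))
    (hdisj : ∀ n i m j, ∀ x ∈ ball (0 : Fin n → ℝ) 1, ∀ y ∈ ball (0 : Fin m → ℝ) 1,
      Φ n i x = Φ m j y → (⟨n, i⟩ : Σ n, cell n) = ⟨m, j⟩)
    (hb : ∀ n i, ∀ x ∈ sphere (0 : Fin n → ℝ) 1, ∃ m, m < n ∧ ∃ j, ∃ y ∈ ball (0 : Fin m → ℝ) 1,
      Φ m j y = Φ n i x)
    (hsurj : ∀ z, ∃ n i, ∃ y ∈ ball (0 : Fin n → ℝ) 1, Φ n i y = z) :
    ∃ _ : _root_.Topology.CWComplex (univ : Set X),
      _root_.Topology.RelCWComplex.Finite (univ : Set X) ∧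
      ∀ n : ℕ, d < n → IsEmpty (_root_.Topology.RelCWComplex.cell (univ : Set X) n) := by
  let map : (n : ℕ) → (i : cell n) → PartialEquiv (Fin n → ℝ) X :=
    fun n i => (hi n i).toPartialEquiv (Φ n i) (ball 0 1)
  have hmap : ∀ n i, (map n i : (Fin n → ℝ) → X) = Φ n i := fun _ _ => rfl
  have h1 : ∀ᶠ n in Filter.atTop, IsEmpty (cell n) :=
    Filter.eventually_atTop.mpr ⟨d + 1, fun n hn => hemp n hn⟩
  have h2 : ∀ (n : ℕ) (i : cell n), (map n i).source = ball 0 1 := fun _ _ => rfl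
  have h3 : ∀ (n : ℕ) (i : cell n), ContinuousOn (map n i) (closedBall 0 1) :=
    fun n i => (hc n i).continuousOn
  have h4 : ∀ (n : ℕ) (i : cell n), ContinuousOn (map n i).symm (map n i).target := by
    intro n i
    refine continuousOn_inv (Φ n i) (hc n i) (hi n i) ?_
    intro x hx y hy hxy
    obtain ⟨m, hm, j, y', hy', h⟩ := hb n i y hy
    have := hdisj n i m j x hx y' hy' (hxy.trans h.symm)
    have h' : n = m := congrArg Sigma.fst this
    omega
  have h5 : (univ : Set (Σ n, cell n)).PairwiseDisjoint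
      (fun ni => map ni.1 ni.2 '' ball 0 1) := by
    rintro ⟨n, i⟩ - ⟨m, j⟩ - hne
    rw [Function.onFun, Set.disjoint_left]
    rintro z ⟨x, hx, rfl⟩ ⟨y, hy, hyx⟩
    exact hne (hdisj n i m j x hx y hy hyx.symm)
  have h6 : ∀ (n : ℕ) (i : cell n),
      MapsTo (map n i) (sphere 0 1) (⋃ (m < n) (j : cell m), map m j '' closedBall 0 1) := by
    intro n i x hx
    obtain ⟨m, hm, j, y, hy, h⟩ := hb n i x hx
    simp only [mem_iUnion]
    exact ⟨m, hm, j, y, ball_subset_closedBall hy, h⟩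
  have h7 : ⋃ (n : ℕ) (j : cell n), map n j '' closedBall 0 1 = univ := by
    rw [eq_univ_iff_forall]
    intro z
    obtain ⟨n, i, y, hy, h⟩ := hsurj z
    simp only [mem_iUnion]
    exact ⟨n, i, y, ball_subset_closedBall hy, h⟩
  exact ⟨_root_.Topology.CWComplex.mkFinite univ cell map h1 hfin h2 h3 h4 h5 h6 h7,
    _root_.Topology.CWComplex.finite_mkFinite univ cell map h1 hfin h2 h3 h4 h5 h6 h7, hemp⟩

end Crest.Agent.R177.CWQuotAux
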